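import Vale.Agent.P097.H365.W.Div
import Vale.Agent.P097.TC.Defs

/-!
# P097, case [c], row A5.W-POS (helper365): the position of the line at one window, R2 included
-/

set_option linter.all false

open Complex Metric Filter Topology Set

namespace Vale.Agent.P097.H365.W

open Vale.Agent.P097.TC

variable {V : Type*} [NormedAddCommGroup V] [NormedSpace ℂ V]

theorem norm_cos_le (w : ℂ) : ‖Complex.cos w‖ ≤ Real.exp |w.im| := by
  rw [Complex.cos, norm_div, Complex.norm_ofNat, div_le_iff₀ (by norm_num)]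
  refine (norm_add_le _ _).trans ?_
  rw [Complex.norm_exp, Complex.norm_exp]
  have h1 : (w * I).re = -w.im := by simp
  have h2 : (-w * I).re = w.im := by simp
  rw [h1, h2]
  have h3 : Real.exp (-w.im) ≤ Real.exp |w.im| := Real.exp_le_exp.2 (neg_le_abs _)
  have h4 : Real.exp (w.im) ≤ Real.exp |w.im| := Real.exp_le_exp.2 (le_abs_self _)
  linarith

theorem norm_sin_le (w : ℂ) : ‖Complex.sin w‖ ≤ Real.exp |w.im| := by
  rw [Complex.sin, norm_div, Complex.norm_ofNat, div_le_iff₀ (by norm_num), norm_mul, norm_I,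
    mul_one]
  refine (norm_sub_le _ _).trans ?_
  rw [Complex.norm_exp, Complex.norm_exp]
  have h1 : (w * I).re = -w.im := by simp
  have h2 : (-w * I).re = w.im := by simp
  rw [h1, h2]
  have h3 : Real.exp (-w.im) ≤ Real.exp |w.im| := Real.exp_le_exp.2 (neg_le_abs _)
  have h4 : Real.exp (w.im) ≤ Real.exp |w.im| := Real.exp_le_exp.2 (le_abs_self _)
  linarith

/-- data at one window: vertex `th` on the line `(al, p)`, over a ball of a normed space -/
structure Wn (b : ℝ) (F q : ℂ → ℂ) (c₀ : V) (R M c : ℝ) (th al p : V → ℂ) : Prop where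
  R0 : 0 < R
  M1 : 1 ≤ M
  c0 : 0 < c
  dF : DifferentiableOn ℂ F (Sb b)
  dth : DifferentiableOn ℂ th (ball c₀ R)
  dp : DifferentiableOn ℂ p (ball c₀ R)
  mem : ∀ z ∈ ball c₀ R, th z ∈ Sb b
  inc : ∀ z ∈ ball c₀ R, Mi F q (al z) (p z) (th z) = 0
  bq : ∀ z ∈ ball c₀ R, ‖q (th z)‖ ≤ M
  bq' : ∀ z ∈ ball c₀ R, ‖deriv q (th z)‖ ≤ M
  bF' : ∀ z ∈ ball c₀ R, ‖deriv F (th z)‖ ≤ M
  one : ∃ z₁ ∈ ball c₀ (R / 2), c ≤ ‖deriv F (th z₁)‖

theorem isOpen_Sb (b : ℝ) : IsOpen (Sb b) :=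
  isOpen_lt (Complex.continuous_im.abs) continuous_const

/-- **position bound with a multiplier** `φ` -/
theorem pos_mul : ∃ K : ℝ, 1 ≤ K ∧ ∀ {b : ℝ} {F q : ℂ → ℂ} {c₀ : V} {R M c E : ℝ}
    {th al p : V → ℂ}, Wn b F q c₀ R M c th al p → ∀ {φ : V → ℂ},
    DifferentiableOn ℂ φ (ball c₀ R) →
    (∀ z ∈ ball c₀ R, ‖φ z‖ * Real.exp |(al z - F (th z)).im| ≤ E) →
    ∀ z ∈ ball c₀ (R / 2), ‖p z * φ z‖ ≤ 2 * M * E * Real.exp (K * (1 + Real.log (M / c))) := by
  obtain ⟨K, hK1, hK⟩ := div_bound (V := V)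
  refine ⟨K, hK1, ?_⟩
  intro b F q c₀ R M c E th al p H φ hφ hE z hz
  obtain ⟨z₁, hz₁, hc₁⟩ := H.one
  have hM0 : 0 < M := lt_of_lt_of_le one_pos H.M1
  have hE0 : 0 ≤ E := (by positivity : (0 : ℝ) ≤ ‖φ c₀‖ * Real.exp |(al c₀ - F (th c₀)).im|).trans
    (hE c₀ (mem_ball_self H.R0))
  have hG : DifferentiableOn ℂ (fun z => deriv F (th z)) (ball c₀ R) :=
    (H.dF.deriv (isOpen_Sb b)).comp H.dth H.mem
  have h := hK (c₀ := c₀) (R := R) (M := M) (A := 2 * M ^ 2 * E) (c := c) H.R0 H.c0 hG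
    (H.dp.mul hφ) H.bF' (fun w hw => by
      have h1 := H.inc w hw
      have h2 : deriv F (th w) * (p w * φ w) =
          deriv F (th w) * q (th w) * (Complex.cos (al w - F (th w)) * φ w) +
          deriv q (th w) * (Complex.sin (al w - F (th w)) * φ w) := by
        unfold Mi at h1
        linear_combination (-φ w) * h1
      have h3 := norm_cos_le (al w - F (th w))
      have h4 := norm_sin_le (al w - F (th w))
      have h5 := hE w hw
      have h6 : ‖Complex.cos (al w - F (th w)) * φ w‖ ≤ E := by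
        rw [norm_mul]
        refine le_trans ?_ h5
        rw [mul_comm]
        gcongr
      have h7 : ‖Complex.sin (al w - F (th w)) * φ w‖ ≤ E := by
        rw [norm_mul]
        refine le_trans ?_ h5
        rw [mul_comm]
        gcongr
      show ‖deriv F (th w) * (p w * φ w)‖ ≤ _
      rw [h2]
      refine (norm_add_le _ _).trans ?_
      rw [norm_mul (deriv F (th w) * q (th w)), norm_mul (deriv F (th w)),
        norm_mul (deriv q (th w))]
      have h8 := H.bq w hw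
      have h9 := H.bq' w hw
      have h10 := H.bF' w hw
      calc ‖deriv F (th w)‖ * ‖q (th w)‖ * ‖Complex.cos (al w - F (th w)) * φ w‖ +
            ‖deriv q (th w)‖ * ‖Complex.sin (al w - F (th w)) * φ w‖
          ≤ M * M * E + M * E := by gcongr
        _ ≤ M * M * E + M * M * E := by
            have : M * E ≤ M * M * E := by
              have := H.M1
              nlinarith [mul_nonneg hM0.le hE0]
            linarith
        _ = 2 * M ^ 2 * E := by ring) hz₁ hc₁ z hz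
  refine h.trans (le_of_eq ?_)
  field_simp

/-- **position bound** -/
theorem pos_bound : ∃ K : ℝ, 1 ≤ K ∧ ∀ {b : ℝ} {F q : ℂ → ℂ} {c₀ : V} {R M c h : ℝ}
    {th al p : V → ℂ}, Wn b F q c₀ R M c th al p →
    (∀ z ∈ ball c₀ R, |(al z - F (th z)).im| ≤ h) →
    ∀ z ∈ ball c₀ (R / 2),
      ‖p z‖ ≤ 2 * M * Real.exp h * Real.exp (K * (1 + Real.log (M / c))) := by
  obtain ⟨K, hK1, hK⟩ := pos_mul (V := V)
  refine ⟨K, hK1, ?_⟩
  intro b F q c₀ R M c h th al p H hh z hz
  have := hK H (φ := fun _ => 1) (E := Real.exp h) (differentiableOn_const _) (fun w hw => by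
    rw [norm_one, one_mul]
    exact Real.exp_le_exp.2 (hh w hw)) z hz
  simpa using this

/-- **one sided forms**: `s = 1` (lines `[1 : -f² : -A]`, `f = exp (i al)`) and `s = -1`;
`h` bounds the one sided part `max (0, -s Im (al - F))`, `B` bounds `|Im F|`. -/
theorem pos_side : ∃ K : ℝ, 1 ≤ K ∧ ∀ {b : ℝ} {F q : ℂ → ℂ} {c₀ : V} {R M c h B : ℝ}
    {th al p : V → ℂ}, Wn b F q c₀ R M c th al p → DifferentiableOn ℂ al (ball c₀ R) →
    ∀ s : ℝ, (s = 1 ∨ s = -1) → 0 ≤ h →
    (∀ z ∈ ball c₀ R, -(s * (al z - F (th z)).im) ≤ h) →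
    (∀ z ∈ ball c₀ R, |(F (th z)).im| ≤ B) →
    ∀ z ∈ ball c₀ (R / 2), ‖p z * Complex.exp (I * (s * al z))‖ ≤
      2 * M * Real.exp (2 * h + B) * Real.exp (K * (1 + Real.log (M / c))) := by
  obtain ⟨K, hK1, hK⟩ := pos_mul (V := V)
  refine ⟨K, hK1, ?_⟩
  intro b F q c₀ R M c h B th al p H hal s hs h0 hh hB z hz
  refine hK H (φ := fun w => Complex.exp (I * (s * al w))) (E := Real.exp (2 * h + B)) ?_ ?_ z hz
  · exact ((hal.const_mul _).const_mul _).cexp
  · intro w hw
    rw [Complex.norm_exp, ← Real.exp_add]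
    refine Real.exp_le_exp.2 ?_
    have h1 : (I * (s * al w)).re = -(s * (al w).im) := by simp
    rw [h1]
    have h2 := hh w hw
    have h3 := abs_le.1 (hB w hw)
    rw [Complex.sub_im] at h2 ⊢
    set x := (al w).im
    set y := (F (th w)).im
    rcases hs with rfl | rfl
    · rcases le_or_gt 0 (x - y) with h4 | h4
      · rw [abs_of_nonneg h4]; linarith [h3.1, h3.2]
      · rw [abs_of_neg h4]; linarith [h3.1, h3.2]
    · rcases le_or_gt 0 (x - y) with h4 | h4
      · rw [abs_of_nonneg h4]; linarith [h3.1, h3.2]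
      · rw [abs_of_neg h4]; linarith [h3.1, h3.2]

end Vale.Agent.P097.H365.W
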