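import Mathlib
import Vale.Agent.P097.H690.LD.LogDer

/-!
# P097, case [c], row A5.W-POS (helper365): division by a bounded function with one large value

`G` bounded by `M` on `ball c₀ R` (any complex normed space), `c ≤ |G z₁|` at one point of
`ball c₀ (R/2)`, `|G P| ≤ A` ⟹ `|P| ≤ (A / c) * exp (K (1 + log (M / c)))` on `ball c₀ (R/2)`.
Linear in the logarithm (Chebyshev form of the Cartan lemma, by finite differences).
-/

set_option linter.all false

open Complex Metric Filter Topology Set
open scoped Nat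

namespace Vale.Agent.P097.H365.W

open Vale.Agent.P097.H690.LD

/-- a monic real polynomial with given roots is large at one of the integers `0, .., N` -/
theorem exists_int (l : List ℝ) : ∃ k : ℕ, k ≤ l.length ∧
    (l.length ! : ℝ) / 2 ^ l.length ≤ (l.map fun x => |(k : ℝ) - x|).prod := by
  classical
  set N := l.length with hN
  set P : Polynomial ℝ := (Multiset.map (fun x => Polynomial.X - Polynomial.C x)
    (l : Multiset ℝ)).prod with hP
  have hmon : P.Monic := Polynomial.monic_multisetProd_X_sub_C _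
  have hdeg : P.natDegree = N := by
    rw [hP, Polynomial.natDegree_multiset_prod_X_sub_C_eq_card]
    simp [hN]
  have hev : ∀ y : ℝ, |P.eval y| = (l.map fun x => |y - x|).prod := by
    intro y
    have h1 : P.eval y = (l.map fun x => y - x).prod := by
      rw [hP, Polynomial.eval_multiset_prod]
      simp [Function.comp_def]
    rw [h1]
    have h2 : ∀ m : List ℝ, |(m.map fun x => y - x).prod| = (m.map fun x => |y - x|).prod := by
      intro m
      induction m with
      | nil => simp
      | cons a m ih => rw [List.map_cons, List.prod_cons, abs_mul, ih, List.map_cons, List.prod_cons]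
    exact h2 l
  by_contra hcon
  push Not at hcon
  have h1 := congrFun P.fwdDiff_iter_degree_eq_factorial 0
  rw [fwdDiff_iter_eq_sum_shift, hmon.leadingCoeff, hdeg] at h1
  have h2 : (N ! : ℝ) = ∑ k ∈ Finset.range (N + 1),
      (((-1 : ℤ) ^ (N - k) * N.choose k : ℤ) : ℝ) * P.eval (k : ℝ) := by
    have h3 : ((1 : ℝ) • (N ! : ℝ → ℝ)) 0 = (N ! : ℝ) := by simp
    rw [← h3, ← h1]
    refine Finset.sum_congr rfl fun k _ => ?_
    simp
  have h4 : (N ! : ℝ) ≤ ∑ k ∈ Finset.range (N + 1), (N.choose k : ℝ) * |P.eval (k : ℝ)| := by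
    calc (N ! : ℝ) = |(N ! : ℝ)| := (abs_of_nonneg (by positivity)).symm
      _ ≤ ∑ k ∈ Finset.range (N + 1),
          |(((-1 : ℤ) ^ (N - k) * N.choose k : ℤ) : ℝ) * P.eval (k : ℝ)| := by
        rw [h2]
        exact Finset.abs_sum_le_sum_abs _ _
      _ = _ := by
        refine Finset.sum_congr rfl fun k _ => ?_
        rw [abs_mul]
        congr 1
        push_cast
        rw [abs_mul, abs_pow, abs_neg, abs_one, one_pow, one_mul]
        exact abs_of_nonneg (by positivity)
  have h5 : ∑ k ∈ Finset.range (N + 1), (N.choose k : ℝ) * |P.eval (k : ℝ)| <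
      ∑ k ∈ Finset.range (N + 1), (N.choose k : ℝ) * ((N ! : ℝ) / 2 ^ N) := by
    refine Finset.sum_lt_sum_of_nonempty (by simp) fun k hk => ?_
    have hk' : k ≤ N := Nat.lt_succ_iff.1 (Finset.mem_range.1 hk)
    have h6 := hcon k hk'
    rw [← hev] at h6
    have h7 : (0 : ℝ) < N.choose k := by exact_mod_cast Nat.choose_pos hk'
    exact mul_lt_mul_of_pos_left h6 h7
  rw [← Finset.sum_mul] at h5
  have h8 : ∑ k ∈ Finset.range (N + 1), (N.choose k : ℝ) = 2 ^ N := by
    exact_mod_cast Nat.sum_range_choose N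
  rw [h8, mul_div_cancel₀ _ (by positivity)] at h5
  linarith

/-- **Chebyshev / Cartan**: on an interval of length `L` some point is far from `N` given numbers
in the mean -/
theorem exists_far (l : List ℝ) {A L : ℝ} (hL : 0 < L) : ∃ r : ℝ, A ≤ r ∧ r ≤ A + L ∧
    (L / 6) ^ l.length ≤ (l.map fun x => |r - x|).prod := by
  rcases Nat.eq_zero_or_pos l.length with h0 | h0
  · rw [List.length_eq_zero_iff] at h0
    subst h0
    exact ⟨A, le_rfl, by linarith, by simp⟩
  set N := l.length with hN
  have hNp : (0 : ℝ) < N := by exact_mod_cast h0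
  obtain ⟨k, hk, h⟩ := exists_int (l.map fun x => (x - A) * N / L)
  rw [List.length_map, ← hN] at hk h
  have hkN : (k : ℝ) ≤ N := by exact_mod_cast hk
  refine ⟨A + k * L / N, ?_, ?_, ?_⟩
  · have : 0 ≤ (k : ℝ) * L / N := by positivity
    linarith
  · have : (k : ℝ) * L / N ≤ L := by
      rw [div_le_iff₀ hNp]; nlinarith
    linarith
  have h1 : (l.map fun x => |A + k * L / N - x|).prod =
      (L / N) ^ N * ((l.map fun x => (x - A) * N / L).map fun x => |(k : ℝ) - x|).prod := by
    rw [List.map_map, hN]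
    have h2 : ∀ x : ℝ, |A + k * L / N - x| = L / N * |(k : ℝ) - (x - A) * N / L| := by
      intro x
      have e : A + k * L / N - x = L / N * ((k : ℝ) - (x - A) * N / L) := by
        field_simp
        ring
      rw [e, abs_mul, abs_of_pos (show 0 < L / N by positivity)]
    have h3 : ∀ m : List ℝ, (m.map fun x => |A + k * L / N - x|).prod =
        (L / N) ^ m.length * (m.map ((fun x => |(k : ℝ) - x|) ∘ fun x => (x - A) * N / L)).prod := by
      intro m
      induction m with
      | nil => simp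
      | cons a m ih =>
        rw [List.map_cons, List.prod_cons, ih, h2, List.length_cons, List.map_cons, List.prod_cons]
        simp only [Function.comp]
        ring
    exact h3 l
  rw [h1]
  have h4 : (N : ℝ) ^ N / Real.exp N ≤ (N ! : ℝ) := by
    have := Real.pow_div_factorial_le_exp (x := (N : ℝ)) hNp.le N
    rw [div_le_iff₀ (by positivity)] at this
    rw [div_le_iff₀ (Real.exp_pos _)]
    linarith
  have h5 : Real.exp N ≤ 3 ^ N := by
    have h6 : Real.exp (N : ℝ) = Real.exp 1 ^ N := by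
      rw [← Real.exp_nat_mul, mul_one]
    rw [h6]
    have := Real.exp_one_lt_d9
    gcongr
    linarith
  have h7 : ((N : ℝ) / 6) ^ N ≤ (N ! : ℝ) / 2 ^ N := by
    rw [le_div_iff₀ (by positivity)]
    refine le_trans ?_ h4
    rw [le_div_iff₀ (Real.exp_pos _)]
    calc ((N : ℝ) / 6) ^ N * 2 ^ N * Real.exp N ≤ ((N : ℝ) / 6) ^ N * 2 ^ N * 3 ^ N := by gcongr
      _ = (N : ℝ) ^ N := by
        rw [← mul_pow, ← mul_pow]
        congr 1
        ring
  calc (L / 6) ^ N = (L / N) ^ N * ((N : ℝ) / 6) ^ N := by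
        rw [← mul_pow]
        congr 1
        field_simp
    _ ≤ _ := by gcongr; exact h7.trans h

/-- a circle of radius in `[R/16, R/8]` on which `f` is large, linear in `D` -/
theorem circ {f : ℂ → ℂ} {c : ℂ} {R D : ℝ} (hR : 0 < R) (hD : 0 ≤ D)
    (hf : DifferentiableOn ℂ f (ball c R))
    (hb : ∀ z ∈ ball c R, ‖f z‖ ≤ Real.exp D) (hc : 1 ≤ ‖f c‖) :
    ∃ r : ℝ, R / 16 ≤ r ∧ r ≤ R / 8 ∧ ∀ z ∈ sphere c r, Real.exp (-(24 * (D + 1))) ≤ ‖f z‖ := by
  obtain ⟨s, h, H, hne⟩ := exists_fc hR hf hb hc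
  obtain ⟨hmx, hcard⟩ := H.bound hR hb hc
  set N : ℝ := (s.length : ℝ) with hN
  have hN0 : 0 ≤ N := by positivity
  have hND : N ≤ 3 / 2 * D := by
    have h1 := Real.log_le_log (by positivity) hcard
    rw [Real.log_exp, Real.log_pow] at h1
    have h2 := Real.log_two_gt_d9
    nlinarith
  have hld : ∀ z ∈ closedBall c (R / 8), ‖deriv h z / h z‖ ≤ 128 * (D + 1) / R := by
    intro z hz
    have hsh : DifferentiableOn ℂ (fun w => h (w + c)) (ball 0 (R / 4)) := by
      intro w hw
      have h1 : w + c ∈ ball c R := by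
        rw [mem_ball, dist_zero_right] at hw
        rw [mem_ball, dist_eq_norm]; simp; linarith
      have h2 : DifferentiableAt ℂ h (w + c) := (H.an.differentiableAt (isOpen_ball.mem_nhds h1))
      exact (h2.comp w (by fun_prop : DifferentiableAt ℂ (fun w => w + c) w)).differentiableWithinAt
    have h3 := H330.logDeriv_zero_free (H := fun w => h (w + c)) (R := R / 8) (S := R / 4)
      (B := D + 1) (by positivity) (by linarith) hsh (fun w hw => hne _ (by
        rw [mem_ball, dist_zero_right] at hw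
        rw [mem_closedBall, dist_eq_norm]; simp; linarith)) (by positivity) (fun w hw => by
        rw [mem_ball, dist_zero_right] at hw
        have h4 := hmx (w + c) (by rw [mem_closedBall, dist_eq_norm]; simp; linarith)
        have h5 : (1 : ℝ) ≤ 2 ^ s.length := one_le_pow₀ (by norm_num)
        simp only [zero_add]
        calc ‖h (w + c)‖ = ‖h (w + c)‖ * 1 := by ring
          _ ≤ ‖h (w + c)‖ * 2 ^ s.length := by gcongr
          _ ≤ Real.exp D * ‖h c‖ := h4
          _ ≤ Real.exp (D + 1) * ‖h c‖ := by gcongr; linarith)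
      (z := z - c) (by rwa [mem_closedBall, dist_eq_norm] at hz)
    have h6 : deriv (fun w => h (w + c)) (z - c) = deriv h z := by
      rw [deriv_comp_add_const]; simp
    simp only [sub_add_cancel] at h3
    rw [h6] at h3
    refine h3.trans (le_of_eq ?_)
    field_simp
    ring
  -- lower bound of `h`
  have hlow : ∀ z ∈ closedBall c (R / 8), ‖h c‖ ≤ ‖h z‖ * Real.exp (16 * (D + 1)) := by
    intro z hz
    rw [mem_closedBall, dist_eq_norm] at hz
    have hmem : ∀ t ∈ Icc (0 : ℝ) 1, z + t * (c - z) ∈ closedBall c (R / 8) := by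
      intro t ht
      rw [mem_closedBall, dist_eq_norm]
      have : z + t * (c - z) - c = (1 - t) * (z - c) := by ring
      rw [this, norm_mul]
      have h1 : ‖(1 - t : ℂ)‖ ≤ 1 := by
        have : (1 - t : ℂ) = ((1 - t : ℝ) : ℂ) := by push_cast; ring
        rw [this, Complex.norm_real, Real.norm_eq_abs, abs_of_nonneg (by linarith [ht.2])]
        linarith [ht.1]
      calc ‖(1 - t : ℂ)‖ * ‖z - c‖ ≤ 1 * ‖z - c‖ := by gcongr
        _ ≤ _ := by linarith
    have hder : ∀ t ∈ Icc (0 : ℝ) 1, HasDerivAt (fun t : ℝ => h (z + t * (c - z)))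
        (deriv h (z + t * (c - z)) * (c - z)) t := by
      intro t ht
      have h1 : z + t * (c - z) ∈ ball c R := by
        have := hmem t ht
        rw [mem_closedBall] at this
        rw [mem_ball]; linarith
      have h2 : HasDerivAt h (deriv h (z + t * (c - z))) (z + t * (c - z)) :=
        (H.an.differentiableAt (isOpen_ball.mem_nhds h1)).hasDerivAt
      have h3 : HasDerivAt (fun w : ℂ => z + w * (c - z)) (c - z) (t : ℂ) := by
        simpa using ((hasDerivAt_id (t : ℂ)).mul_const (c - z)).const_add z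
      exact (h2.comp (t : ℂ) h3).comp_ofReal
    have hg := norm_le_gronwallBound_of_norm_deriv_right_le (f := fun t : ℝ => h (z + t * (c - z)))
      (f' := fun t : ℝ => deriv h (z + t * (c - z)) * (c - z)) (δ := ‖h z‖)
      (K := 16 * (D + 1)) (ε := 0) (a := 0) (b := 1)
      (fun t ht => (hder t ht).continuousAt.continuousWithinAt)
      (fun t ht => (hder t ⟨ht.1, ht.2.le⟩).hasDerivWithinAt) (by simp)
      (fun t ht => by
        have h4 := hmem t ⟨ht.1, ht.2.le⟩
        have h5 := hld _ h4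
        have h6 : h (z + t * (c - z)) ≠ 0 := hne _ (by
          rw [mem_closedBall] at h4 ⊢; linarith)
        rw [norm_div, div_le_iff₀ (norm_pos_iff.2 h6)] at h5
        rw [norm_mul, add_zero]
        have h7 : ‖c - z‖ ≤ R / 8 := by rw [norm_sub_rev]; exact hz
        calc ‖deriv h (z + t * (c - z))‖ * ‖c - z‖
            ≤ (128 * (D + 1) / R * ‖h (z + t * (c - z))‖) * (R / 8) := by gcongr
          _ = 16 * (D + 1) * ‖h (z + t * (c - z))‖ := by field_simp; ring)
      1 (by simp)
    simp only [ofReal_one, one_mul, add_sub_cancel, sub_zero] at hg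
    rw [gronwallBound_ε0] at hg
    simpa using hg
  -- the radius
  obtain ⟨r, hr1, hr2, hr3⟩ := exists_far (s.map fun a => ‖a - c‖) (A := R / 16) (L := R / 16)
    (by positivity)
  refine ⟨r, hr1, by linarith, fun z hz => ?_⟩
  rw [mem_sphere, dist_eq_norm] at hz
  have hpz : (R / 96) ^ s.length ≤ ‖pz s z‖ := by
    rw [List.length_map, List.map_map] at hr3
    have e1 : R / 16 / 6 = R / 96 := by ring
    rw [e1] at hr3
    refine hr3.trans ?_
    have h1 : ∀ m : List ℂ, (m.map ((fun x => |r - x|) ∘ fun a => ‖a - c‖)).prod ≤ ‖pz m z‖ := by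
      intro m
      induction m with
      | nil => simp [pz]
      | cons a m ih =>
        rw [pz_cons, norm_mul, List.map_cons, List.prod_cons]
        have h2 : |r - ‖a - c‖| ≤ ‖z - a‖ := by
          rw [← hz]
          have := abs_norm_sub_norm_le (z - c) (a - c)
          simpa using this
        have h3 : 0 ≤ (m.map ((fun x => |r - x|) ∘ fun a => ‖a - c‖)).prod :=
          List.prod_nonneg fun x hx => by
            obtain ⟨a, _, rfl⟩ := List.mem_map.1 hx
            exact abs_nonneg _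
        exact mul_le_mul h2 ih h3 (norm_nonneg _)
    exact h1 s
  have hhc : (4 / R) ^ s.length ≤ ‖h c‖ := by
    have h1 : ‖f c‖ = ‖pz s c‖ * ‖h c‖ := by rw [H.fac c, norm_mul]
    have h2 : ‖pz s c‖ ≤ (R / 4) ^ s.length := pz_upper (by positivity) fun a ha => by
      have := H.mem a ha
      rwa [mem_closedBall, dist_comm, dist_eq_norm] at this
    have h3 : 1 ≤ (R / 4) ^ s.length * ‖h c‖ := by
      calc (1 : ℝ) ≤ ‖pz s c‖ * ‖h c‖ := by rw [← h1]; exact hc
        _ ≤ _ := by gcongr
    have h4 : (4 / R) ^ s.length * (R / 4) ^ s.length = 1 := by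
      rw [← mul_pow]
      have : 4 / R * (R / 4) = 1 := by field_simp
      rw [this, one_pow]
    calc (4 / R) ^ s.length = (4 / R) ^ s.length * 1 := by ring
      _ ≤ (4 / R) ^ s.length * ((R / 4) ^ s.length * ‖h c‖) := by gcongr
      _ = ‖h c‖ := by rw [← mul_assoc, h4, one_mul]
  have hlz := hlow z (by rw [mem_closedBall, dist_eq_norm, hz]; linarith)
  have hfz : ‖f z‖ = ‖pz s z‖ * ‖h z‖ := by rw [H.fac z, norm_mul]
  -- combine
  have e2 : (R / 96) ^ s.length * (4 / R) ^ s.length = (1 / 24 : ℝ) ^ s.length := by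
    rw [← mul_pow]; congr 1; field_simp; norm_num
  have h24 : Real.exp (-(10 / 3 * N)) ≤ (1 / 24 : ℝ) ^ s.length := by
    have h1 : Real.exp (-(10 / 3 * N)) = Real.exp (-(10 / 3)) ^ s.length := by
      rw [← Real.exp_nat_mul]; congr 1; rw [hN]; ring
    rw [h1]
    gcongr
    rw [Real.exp_neg, one_div]
    gcongr
    -- 24 ≤ exp (10/3)
    have h2 : (2.7182818283 : ℝ) < Real.exp 1 := Real.exp_one_gt_d9
    have h3 : Real.exp (10 / 3) = Real.exp 1 * Real.exp 1 * Real.exp 1 * Real.exp (1 / 3) := by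
      rw [← Real.exp_add, ← Real.exp_add, ← Real.exp_add]; norm_num
    have h4 : (4 / 3 : ℝ) ≤ Real.exp (1 / 3) := by
      have := Real.add_one_le_exp (1 / 3 : ℝ); linarith
    rw [h3]
    have h5 : (20 : ℝ) ≤ Real.exp 1 * Real.exp 1 * Real.exp 1 := by nlinarith
    nlinarith
  calc Real.exp (-(24 * (D + 1))) ≤ Real.exp (-(10 / 3 * N)) * Real.exp (-(16 * (D + 1))) := by
        rw [← Real.exp_add]
        exact Real.exp_le_exp.2 (by nlinarith)
    _ ≤ (1 / 24 : ℝ) ^ s.length * Real.exp (-(16 * (D + 1))) := by gcongr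
    _ = (R / 96) ^ s.length * ((4 / R) ^ s.length * Real.exp (-(16 * (D + 1)))) := by
        rw [← e2]; ring
    _ ≤ ‖pz s z‖ * (‖h c‖ * Real.exp (-(16 * (D + 1)))) := by gcongr
    _ ≤ ‖pz s z‖ * ‖h z‖ := by
        gcongr
        rw [Real.exp_neg, ← div_eq_mul_inv, div_le_iff₀ (Real.exp_pos _)]
        exact hlz
    _ = ‖f z‖ := hfz.symm

/-- one step of the division lemma -/
theorem step {V : Type*} [NormedAddCommGroup V] [NormedSpace ℂ V] {c₀ : V} {R M A : ℝ}
    (hR : 0 < R) (hM : 0 < M) {G P : V → ℂ} (hG : DifferentiableOn ℂ G (ball c₀ R))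
    (hP : DifferentiableOn ℂ P (ball c₀ R)) (hGM : ∀ z ∈ ball c₀ R, ‖G z‖ ≤ M)
    (hA : ∀ z ∈ ball c₀ R, ‖G z * P z‖ ≤ A) {y z : V} (hy : y ∈ ball c₀ (R / 2))
    (hGy : G y ≠ 0) (hzy : z ≠ y) :
    ∃ r : ℝ, R / 32 ≤ r ∧ r ≤ R / 16 ∧
      (‖z - y‖ ≤ r → ‖P z‖ ≤ A / ‖G y‖ * Real.exp (24 * (Real.log (M / ‖G y‖) + 1))) ∧
      Real.exp (-(24 * (Real.log (M / ‖G y‖) + 1))) * ‖G y‖ ≤
        ‖G (y + ((r : ℂ) / (‖z - y‖ : ℂ)) • (z - y))‖ := by
  set d : ℝ := ‖z - y‖ with hd
  have hd0 : 0 < d := norm_pos_iff.2 (sub_ne_zero.2 hzy)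
  have hGy0 : 0 < ‖G y‖ := norm_pos_iff.2 hGy
  have hyR : y ∈ ball c₀ R := ball_subset_ball (by linarith) hy
  set D : ℝ := Real.log (M / ‖G y‖) with hD
  have hexpD : Real.exp D = M / ‖G y‖ := Real.exp_log (by positivity)
  have hD0 : 0 ≤ D := Real.log_nonneg (by
    rw [le_div_iff₀ hGy0, one_mul]; exact hGM y hyR)
  set u : V := ((d : ℂ)⁻¹) • (z - y) with hu
  have hun : ‖u‖ = 1 := by
    rw [hu, norm_smul, norm_inv, Complex.norm_real, Real.norm_eq_abs, abs_of_pos hd0, ← hd]
    field_simp
  have hmem : ∀ ζ ∈ ball (0 : ℂ) (R / 2), y + ζ • u ∈ ball c₀ R := by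
    intro ζ hζ
    rw [mem_ball_zero_iff] at hζ
    rw [mem_ball, dist_eq_norm] at hy ⊢
    have h1 : y + ζ • u - c₀ = (y - c₀) + ζ • u := by abel
    rw [h1]
    have h2 := norm_add_le (y - c₀) (ζ • u)
    rw [norm_smul, hun, mul_one] at h2
    linarith
  have hline : Differentiable ℂ fun ζ : ℂ => y + ζ • u := by fun_prop
  have hf : DifferentiableOn ℂ (fun ζ : ℂ => G (y + ζ • u) / G y) (ball 0 (R / 2)) :=
    (hG.comp hline.differentiableOn hmem).div_const _
  obtain ⟨r, hr1, hr2, hr3⟩ := circ (R := R / 2) (by positivity) hD0 hf (fun ζ hζ => by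
    rw [norm_div, hexpD]
    gcongr
    exact hGM _ (hmem ζ hζ)) (by simp [hGy])
  have hr0 : 0 < r := by linarith
  have hcirc : ∀ ζ ∈ sphere (0 : ℂ) r,
      Real.exp (-(24 * (D + 1))) * ‖G y‖ ≤ ‖G (y + ζ • u)‖ := by
    intro ζ hζ
    have := hr3 ζ hζ
    rw [norm_div, le_div_iff₀ hGy0] at this
    exact this
  refine ⟨r, by linarith, by linarith, fun hzr => ?_, ?_⟩
  · have hz : z = y + (d : ℂ) • u := by
      rw [hu, smul_smul, mul_inv_cancel₀ (by exact_mod_cast hd0.ne'), one_smul]
      abel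
    have hmax := Complex.norm_le_of_forall_mem_frontier_norm_le (U := ball (0 : ℂ) r)
      (f := fun ζ : ℂ => P (y + ζ • u)) (C := A / ‖G y‖ * Real.exp (24 * (D + 1)))
      isBounded_ball (by
        refine DifferentiableOn.diffContOnCl ?_
        rw [closure_ball _ hr0.ne']
        refine hP.comp hline.differentiableOn fun ζ hζ => hmem ζ ?_
        rw [mem_closedBall_zero_iff] at hζ
        rw [mem_ball_zero_iff]; linarith) (fun ζ hζ => by
        rw [frontier_ball _ hr0.ne'] at hζ
        have h1 := hcirc ζ hζ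
        have h2 : y + ζ • u ∈ ball c₀ R := hmem ζ (by
          rw [mem_sphere_zero_iff_norm] at hζ
          rw [mem_ball_zero_iff, hζ]; linarith)
        have h3 := hA _ h2
        rw [norm_mul] at h3
        have h4 : 0 < Real.exp (-(24 * (D + 1))) * ‖G y‖ := by positivity
        have h5 : ‖P (y + ζ • u)‖ ≤ A / (Real.exp (-(24 * (D + 1))) * ‖G y‖) := by
          rw [le_div_iff₀ h4]
          calc ‖P (y + ζ • u)‖ * (Real.exp (-(24 * (D + 1))) * ‖G y‖)
              ≤ ‖P (y + ζ • u)‖ * ‖G (y + ζ • u)‖ := by gcongr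
            _ ≤ A := by rw [mul_comm]; exact h3
        refine h5.trans (le_of_eq ?_)
        rw [Real.exp_neg]
        field_simp) (z := (d : ℂ)) (by
        rw [closure_ball _ hr0.ne', mem_closedBall_zero_iff, Complex.norm_real, Real.norm_eq_abs,
          abs_of_pos hd0]
        exact hzr)
    rw [hz]
    exact hmax
  · have h1 := hcirc (r : ℂ) (by
      rw [mem_sphere_zero_iff_norm, Complex.norm_real, Real.norm_eq_abs, abs_of_pos hr0])
    rw [hu, smul_smul, ← div_eq_mul_inv] at h1
    exact h1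

/-- **division lemma**: linear in the logarithm of `M / c` -/
theorem div_bound {V : Type*} [NormedAddCommGroup V] [NormedSpace ℂ V] :
    ∃ K : ℝ, 1 ≤ K ∧ ∀ {c₀ : V} {R M A c : ℝ}, 0 < R → 0 < c →
    ∀ {G P : V → ℂ}, DifferentiableOn ℂ G (ball c₀ R) → DifferentiableOn ℂ P (ball c₀ R) →
    (∀ z ∈ ball c₀ R, ‖G z‖ ≤ M) → (∀ z ∈ ball c₀ R, ‖G z * P z‖ ≤ A) →
    ∀ {z₁ : V}, z₁ ∈ ball c₀ (R / 2) → c ≤ ‖G z₁‖ → ∀ z ∈ ball c₀ (R / 2),
    ‖P z‖ ≤ A * Real.exp (K * (1 + Real.log (M / c))) / M := by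
  refine ⟨25 ^ 33, by norm_num, ?_⟩
  intro c₀ R M A c hR hc G P hG hP hGM hA z₁ hz₁ hc1 z hz
  have hM : 0 < M := hc.trans_le (hc1.trans (hGM z₁ (ball_subset_ball (by linarith) hz₁)))
  have key : ∀ n : ℕ, ∀ y ∈ ball c₀ (R / 2), G y ≠ 0 → ‖z - y‖ ≤ n * (R / 32) →
      ‖P z‖ ≤ A * Real.exp (25 ^ (n + 1) * (1 + Real.log (M / ‖G y‖))) / M := by
    intro n
    induction n with
    | zero =>
      intro y hy hGy hd
      have h0 : z = y := by
        have : ‖z - y‖ = 0 := le_antisymm (by simpa using hd) (norm_nonneg _)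
        exact sub_eq_zero.1 (norm_eq_zero.1 this)
      subst h0
      have hGy0 : 0 < ‖G z‖ := norm_pos_iff.2 hGy
      have h1 := hA z (ball_subset_ball (by linarith) hy)
      have hA0 : 0 ≤ A := (norm_nonneg _).trans h1
      rw [norm_mul] at h1
      have h2 : ‖P z‖ ≤ A / ‖G z‖ := by
        rw [le_div_iff₀ hGy0]; linarith
      refine h2.trans ?_
      have hD0 : 0 ≤ Real.log (M / ‖G z‖) := Real.log_nonneg (by
        rw [le_div_iff₀ hGy0, one_mul]; exact hGM z (ball_subset_ball (by linarith) hy))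
      have h3 : M / ‖G z‖ ≤ Real.exp (25 ^ (0 + 1) * (1 + Real.log (M / ‖G z‖))) := by
        conv_lhs => rw [← Real.exp_log (show 0 < M / ‖G z‖ by positivity)]
        exact Real.exp_le_exp.2 (by nlinarith)
      rw [le_div_iff₀ hM]
      calc A / ‖G z‖ * M = A * (M / ‖G z‖) := by ring
        _ ≤ _ := by gcongr
    | succ n ih =>
      intro y hy hGy hd
      have hGy0 : 0 < ‖G y‖ := norm_pos_iff.2 hGy
      have hyR : y ∈ ball c₀ R := ball_subset_ball (by linarith) hy
      have hA0 : 0 ≤ A := (norm_nonneg _).trans (hA y hyR)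
      have hD0 : 0 ≤ Real.log (M / ‖G y‖) := Real.log_nonneg (by
        rw [le_div_iff₀ hGy0, one_mul]; exact hGM y hyR)
      set D := Real.log (M / ‖G y‖) with hD
      have hexpD : Real.exp D = M / ‖G y‖ := Real.exp_log (by positivity)
      have hpow : (25 : ℝ) ≤ 25 ^ (n + 1 + 1) := by
        calc (25 : ℝ) = 25 ^ 1 := by norm_num
          _ ≤ _ := pow_le_pow_right₀ (by norm_num) (by omega)
      rcases eq_or_ne z y with rfl | hzy
      · refine (ih z hy hGy (by simp; positivity)).trans ?_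
        gcongr
        · norm_num
        · omega
      obtain ⟨r, hr1, hr2, hr3, hr4⟩ := step hR hM hG hP hGM hA hy hGy hzy
      rcases le_or_gt ‖z - y‖ r with hle | hgt
      · refine (hr3 hle).trans ?_
        rw [le_div_iff₀ hM]
        have e1 : A / ‖G y‖ * Real.exp (24 * (D + 1)) * M = A * (Real.exp D * Real.exp (24 * (D + 1))) := by
          rw [hexpD]; ring
        rw [e1, ← Real.exp_add]
        gcongr
        nlinarith
      · set y' : V := y + ((r : ℂ) / (‖z - y‖ : ℂ)) • (z - y) with hy'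
        have hd0 : 0 < ‖z - y‖ := norm_pos_iff.2 (sub_ne_zero.2 hzy)
        have hr0 : 0 < r := by linarith
        have hG' : 0 < ‖G y'‖ := lt_of_lt_of_le (by positivity) hr4
        have hτ : r / ‖z - y‖ ∈ Icc (0 : ℝ) 1 :=
          ⟨by positivity, by rw [div_le_one hd0]; exact hgt.le⟩
        have hy'e : y' = y + (r / ‖z - y‖ : ℝ) • (z - y) := by
          rw [hy', ← Complex.ofReal_div]
          rfl
        have hy'm : y' ∈ ball c₀ (R / 2) := by
          rw [hy'e]
          have := (convex_ball c₀ (R / 2)).add_smul_sub_mem hy hz hτ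
          exact this
        have hdist : ‖z - y'‖ ≤ n * (R / 32) := by
          have e2 : z - y' = (1 - r / ‖z - y‖ : ℝ) • (z - y) := by
            rw [hy'e, sub_smul, one_smul]; abel
          rw [e2, norm_smul, Real.norm_eq_abs, abs_of_nonneg (by linarith [hτ.2]), sub_mul, one_mul,
            div_mul_cancel₀ _ hd0.ne']
          push_cast at hd
          linarith
        refine (ih y' hy'm (norm_pos_iff.1 hG') hdist).trans ?_
        have hD' : Real.log (M / ‖G y'‖) ≤ 24 * (D + 1) + D := by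
          have h5 : M / ‖G y'‖ ≤ Real.exp (24 * (D + 1) + D) := by
            rw [div_le_iff₀ hG', Real.exp_add, hexpD]
            have h6 := mul_le_mul_of_nonneg_left hr4 (Real.exp_nonneg (24 * (D + 1)))
            rw [← mul_assoc, ← Real.exp_add, add_neg_cancel, Real.exp_zero, one_mul] at h6
            calc M = M / ‖G y‖ * ‖G y‖ := by field_simp
              _ ≤ M / ‖G y‖ * (Real.exp (24 * (D + 1)) * ‖G y'‖) := by gcongr
              _ = _ := by ring
          calc Real.log (M / ‖G y'‖) ≤ Real.log (Real.exp (24 * (D + 1) + D)) :=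
                Real.log_le_log (by positivity) h5
            _ = _ := Real.log_exp _
        gcongr A * Real.exp ?_ / M
        have hp : (0 : ℝ) < 25 ^ (n + 1) := by positivity
        calc (25 : ℝ) ^ (n + 1) * (1 + Real.log (M / ‖G y'‖))
            ≤ 25 ^ (n + 1) * (25 * (1 + D)) := by gcongr; linarith
          _ = _ := by ring
  have hG1 : G z₁ ≠ 0 := norm_pos_iff.1 (hc.trans_le hc1)
  have hfin := key 32 z₁ hz₁ hG1 (by
    have h1 : dist z z₁ < R := by
      have := dist_triangle z c₀ z₁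
      rw [mem_ball] at hz hz₁
      rw [dist_comm] at hz₁
      linarith
    rw [dist_eq_norm] at h1
    push_cast
    linarith)
  refine hfin.trans ?_
  have hA0 : 0 ≤ A := (norm_nonneg _).trans (hA z₁ (ball_subset_ball (by linarith) hz₁))
  gcongr A * Real.exp ?_ / M
  gcongr

end Vale.Agent.P097.H365.W
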